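/-
S0112 (row 84), package D of `notes/s0112/PROOF.md` (helper72's plan): smoothing inside `M`.

For a strongly continuous isometric family `U : ℝ → H →L[ℂ] H` with `(U t)† = U (-t)`, an
integrable weight `f : ℝ → ℂ` and a bounded operator `a`, the operator
`σ_f(a) x = ∫ f(t) • U_t a U_{-t} x dt` (Bochner integral in `H`) is bounded by `‖f‖₁ ‖a‖`,
lies in every von Neumann algebra containing all `U_t a U_{-t}` (via `M = M''`), and its adjoint
is `σ_{conj f}(a†)`.  The last section specialises to the modular data of the Prelude.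
-/
import Mathlib
import Crest.Prelude.Def_ModularData

set_option autoImplicit false

namespace Crest.Agent.Helper5.S0112

open MeasureTheory Filter Topology
open scoped ComplexConjugate InnerProductSpace

variable {H : Type*} [NormedAddCommGroup H] [InnerProductSpace ℂ H] [CompleteSpace H]

/-! ## Abstract core (Mathlib only) -/

section Abstract

variable {U : ℝ → H →L[ℂ] H}

/-- Joint continuity of `(t, y) ↦ U t y` along a continuous curve, for an isometric strongly
continuous family. -/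
theorem continuous_wave_comp (hiso : ∀ t x, ‖U t x‖ = ‖x‖)
    (hcont : ∀ x, Continuous fun t => U t x) {g : ℝ → H} (hg : Continuous g) :
    Continuous fun t => U t (g t) := by
  rw [continuous_iff_continuousAt]
  intro t₀
  have h1 : Tendsto (fun t => ‖g t - g t₀‖ + ‖U t (g t₀) - U t₀ (g t₀)‖) (𝓝 t₀) (𝓝 0) := by
    have ha : Tendsto (fun t => ‖g t - g t₀‖) (𝓝 t₀) (𝓝 0) :=
      tendsto_iff_norm_sub_tendsto_zero.mp (hg.tendsto t₀)
    have hb : Tendsto (fun t => ‖U t (g t₀) - U t₀ (g t₀)‖) (𝓝 t₀) (𝓝 0) :=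
      tendsto_iff_norm_sub_tendsto_zero.mp ((hcont (g t₀)).tendsto t₀)
    simpa using ha.add hb
  refine tendsto_iff_norm_sub_tendsto_zero.mpr
    (squeeze_zero (fun _ => norm_nonneg _) (fun t => ?_) h1)
  calc ‖U t (g t) - U t₀ (g t₀)‖
      = ‖U t (g t - g t₀) + (U t (g t₀) - U t₀ (g t₀))‖ := by
        rw [map_sub]; congr 1; abel
    _ ≤ ‖U t (g t - g t₀)‖ + ‖U t (g t₀) - U t₀ (g t₀)‖ := norm_add_le _ _
    _ = ‖g t - g t₀‖ + ‖U t (g t₀) - U t₀ (g t₀)‖ := by rw [hiso]

/-- `t ↦ U_t a U_{-t} x` is continuous. -/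
theorem continuous_conjugate (hiso : ∀ t x, ‖U t x‖ = ‖x‖)
    (hcont : ∀ x, Continuous fun t => U t x) (a : H →L[ℂ] H) (x : H) :
    Continuous fun t => U t (a (U (-t) x)) :=
  continuous_wave_comp hiso hcont (a.continuous.comp ((hcont x).comp continuous_neg))

theorem norm_conjugate_le (hiso : ∀ t x, ‖U t x‖ = ‖x‖) (a : H →L[ℂ] H) (x : H) (t : ℝ) :
    ‖U t (a (U (-t) x))‖ ≤ ‖a‖ * ‖x‖ := by
  rw [hiso]
  calc ‖a (U (-t) x)‖ ≤ ‖a‖ * ‖U (-t) x‖ := a.le_opNorm _
    _ = ‖a‖ * ‖x‖ := by rw [hiso]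

/-- The integrand of the smoothing operator is integrable. -/
theorem integrable_integrand (hiso : ∀ t x, ‖U t x‖ = ‖x‖)
    (hcont : ∀ x, Continuous fun t => U t x) {f : ℝ → ℂ} (hf : Integrable f)
    (a : H →L[ℂ] H) (x : H) :
    Integrable fun t => f t • U t (a (U (-t) x)) :=
  hf.smul_bdd (‖a‖ * ‖x‖) (continuous_conjugate hiso hcont a x).aestronglyMeasurable
    (Eventually.of_forall fun t => norm_conjugate_le hiso a x t)

/-- The plain vector integrand `t ↦ f t • U t y` is integrable. -/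
theorem integrable_wave (hiso : ∀ t x, ‖U t x‖ = ‖x‖)
    (hcont : ∀ x, Continuous fun t => U t x) {f : ℝ → ℂ} (hf : Integrable f) (y : H) :
    Integrable fun t => f t • U t y :=
  hf.smul_bdd ‖y‖ (hcont y).aestronglyMeasurable
    (Eventually.of_forall fun t => (hiso t y).le)

/-- The smoothing operator `σ_f(a) x = ∫ f(t) • U_t a U_{-t} x dt`. -/
noncomputable def smooth (hiso : ∀ t x, ‖U t x‖ = ‖x‖)
    (hcont : ∀ x, Continuous fun t => U t x) {f : ℝ → ℂ} (hf : Integrable f)
    (a : H →L[ℂ] H) : H →L[ℂ] H :=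
  LinearMap.mkContinuous
    { toFun := fun x => ∫ t, f t • U t (a (U (-t) x))
      map_add' := fun x y => by
        rw [← integral_add (integrable_integrand hiso hcont hf a x)
          (integrable_integrand hiso hcont hf a y)]
        congr 1
        funext t
        simp only [map_add, smul_add]
      map_smul' := fun c x => by
        simp only [RingHom.id_apply]
        rw [← integral_smul]
        congr 1
        funext t
        simp only [map_smul]
        rw [smul_comm] }
    ((∫ t, ‖f t‖) * ‖a‖) (fun x => by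
      show ‖∫ t, f t • U t (a (U (-t) x))‖ ≤ _
      calc ‖∫ t, f t • U t (a (U (-t) x))‖ ≤ ∫ t, ‖f t‖ * (‖a‖ * ‖x‖) := by
            refine norm_integral_le_of_norm_le (hf.norm.mul_const _)
              (Eventually.of_forall fun t => ?_)
            rw [norm_smul]
            exact mul_le_mul_of_nonneg_left (norm_conjugate_le hiso a x t) (norm_nonneg _)
        _ = (∫ t, ‖f t‖) * ‖a‖ * ‖x‖ := by rw [integral_mul_const]; ring)

theorem smooth_apply (hiso : ∀ t x, ‖U t x‖ = ‖x‖)
    (hcont : ∀ x, Continuous fun t => U t x) {f : ℝ → ℂ} (hf : Integrable f)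
    (a : H →L[ℂ] H) (x : H) :
    smooth hiso hcont hf a x = ∫ t, f t • U t (a (U (-t) x)) := rfl

theorem norm_smooth_le (hiso : ∀ t x, ‖U t x‖ = ‖x‖)
    (hcont : ∀ x, Continuous fun t => U t x) {f : ℝ → ℂ} (hf : Integrable f)
    (a : H →L[ℂ] H) :
    ‖smooth hiso hcont hf a‖ ≤ (∫ t, ‖f t‖) * ‖a‖ :=
  LinearMap.mkContinuous_norm_le _
    (mul_nonneg (integral_nonneg fun _ => norm_nonneg _) (norm_nonneg _)) _

/-- `σ_f(a)` lies in every von Neumann algebra containing all the conjugates `U_t a U_{-t}`. -/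
theorem smooth_mem (hiso : ∀ t x, ‖U t x‖ = ‖x‖)
    (hcont : ∀ x, Continuous fun t => U t x) {f : ℝ → ℂ} (hf : Integrable f)
    {a : H →L[ℂ] H} (M : VonNeumannAlgebra H) (ha : ∀ t, U t * a * U (-t) ∈ M) :
    smooth hiso hcont hf a ∈ M := by
  rw [← M.commutant_commutant, VonNeumannAlgebra.mem_commutant_iff]
  intro b hb
  rw [VonNeumannAlgebra.mem_commutant_iff] at hb
  ext x
  show b (smooth hiso hcont hf a x) = smooth hiso hcont hf a (b x)
  rw [smooth_apply, smooth_apply]
  rw [← ContinuousLinearMap.integral_comp_comm b (integrable_integrand hiso hcont hf a x)]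
  congr 1
  funext t
  rw [map_smul]
  have h : U t (a (U (-t) (b x))) = b (U t (a (U (-t) x))) :=
    congrArg (fun L : H →L[ℂ] H => L x) (hb _ (ha t))
  rw [h]

/-- On a vector fixed by the family, `σ_f(a) x = ∫ f(t) • U_t (a x) dt`. -/
theorem smooth_fixed (hiso : ∀ t x, ‖U t x‖ = ‖x‖)
    (hcont : ∀ x, Continuous fun t => U t x) {f : ℝ → ℂ} (hf : Integrable f)
    (a : H →L[ℂ] H) {x : H} (hx : ∀ t, U t x = x) :
    smooth hiso hcont hf a x = ∫ t, f t • U t (a x) := by
  rw [smooth_apply]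
  congr 1
  funext t
  rw [hx (-t)]

theorem inner_wave (hadj : ∀ t, ContinuousLinearMap.adjoint (U t) = U (-t)) (t : ℝ) (x y : H) :
    ⟪U t x, y⟫_ℂ = ⟪x, U (-t) y⟫_ℂ := by
  rw [← hadj t, ContinuousLinearMap.adjoint_inner_right]

theorem integrable_conj {f : ℝ → ℂ} (hf : Integrable f) :
    Integrable fun t => conj (f t) :=
  hf.norm.mono' (Complex.continuous_conj.comp_aestronglyMeasurable hf.aestronglyMeasurable)
    (Eventually.of_forall fun t => by simp)

/-- The adjoint of `σ_f(a)` is `σ_{conj f}(a†)`. -/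
theorem adjoint_smooth (hiso : ∀ t x, ‖U t x‖ = ‖x‖)
    (hcont : ∀ x, Continuous fun t => U t x)
    (hadj : ∀ t, ContinuousLinearMap.adjoint (U t) = U (-t))
    {f : ℝ → ℂ} (hf : Integrable f) (a : H →L[ℂ] H) :
    ContinuousLinearMap.adjoint (smooth hiso hcont hf a) =
      smooth hiso hcont (integrable_conj hf) (ContinuousLinearMap.adjoint a) := by
  symm
  rw [ContinuousLinearMap.eq_adjoint_iff]
  intro x y
  rw [smooth_apply, smooth_apply,
    ← integral_inner (integrable_integrand hiso hcont hf a y) x,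
    ← inner_conj_symm, ← integral_inner (integrable_integrand hiso hcont (integrable_conj hf) _ x) y,
    ← integral_conj]
  congr 1
  funext t
  rw [inner_smul_right, inner_smul_right, map_mul, Complex.conj_conj, inner_conj_symm,
    inner_wave hadj, ContinuousLinearMap.adjoint_inner_left]
  have h2 : ⟪U (-t) x, a (U (-t) y)⟫_ℂ = ⟪x, U t (a (U (-t) y))⟫_ℂ := by
    rw [inner_wave hadj, neg_neg]
  rw [h2]

end Abstract

/-! ## The wave group of a `LineCalculus` -/

section Wave

open Crest.OpAlg Crest.OpAlg.LineCalculus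

theorem character_apply (t u : ℝ) :
    character t u = Complex.exp (Complex.I * ((t * u : ℝ) : ℂ)) := rfl

theorem character_zero : character 0 = 1 := by
  ext u
  simp [character_apply]

theorem character_add (s t : ℝ) : character (s + t) = character s * character t := by
  ext u
  simp only [character_apply, BoundedContinuousFunction.coe_mul, Pi.mul_apply]
  rw [← Complex.exp_add]
  congr 1
  push_cast
  ring

theorem star_character (t : ℝ) : star (character t) = character (-t) := by
  ext u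
  simp only [BoundedContinuousFunction.star_apply, character_apply]
  rw [Complex.star_def, ← Complex.exp_conj]
  congr 1
  simp only [map_mul, Complex.conj_I, Complex.conj_ofReal]
  push_cast
  ring

variable (D : LineCalculus H)

theorem wave_zero : D.wave 0 = 1 := by
  unfold LineCalculus.wave
  rw [character_zero, map_one]

theorem wave_add (s t : ℝ) : D.wave (s + t) = D.wave s * D.wave t := by
  unfold LineCalculus.wave
  rw [character_add, map_mul]

theorem star_wave (t : ℝ) : star (D.wave t) = D.wave (-t) := by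
  unfold LineCalculus.wave
  rw [← map_star, star_character]

theorem adjoint_wave (t : ℝ) : ContinuousLinearMap.adjoint (D.wave t) = D.wave (-t) := by
  rw [← ContinuousLinearMap.star_eq_adjoint, star_wave]

theorem wave_neg_wave (t : ℝ) (x : H) : D.wave (-t) (D.wave t x) = x := by
  have h : D.wave (-t) * D.wave t = 1 := by
    rw [← wave_add, neg_add_cancel, wave_zero]
  have := congrArg (fun L : H →L[ℂ] H => L x) h
  simpa using this

theorem norm_wave (t : ℝ) (x : H) : ‖D.wave t x‖ = ‖x‖ := by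
  have h : ⟪D.wave t x, D.wave t x⟫_ℂ = ⟪x, x⟫_ℂ := by
    rw [inner_wave (adjoint_wave D), wave_neg_wave]
  have h2 : ‖D.wave t x‖ ^ 2 = ‖x‖ ^ 2 := by
    rw [inner_self_eq_norm_sq_to_K, inner_self_eq_norm_sq_to_K] at h
    exact_mod_cast h
  exact (sq_eq_sq₀ (norm_nonneg _) (norm_nonneg _)).mp h2

end Wave

/-! ## Package D against the Prelude's modular data -/

section Modular

open Crest.OpAlg

variable (S : ModularDatum H)

/-- **D1.** Smoothing inside `M`: for `a ∈ M` and an integrable weight `f` there is `a' ∈ M` with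
`‖a'‖ ≤ ‖f‖₁ ‖a‖`, `a' ξ = ∫ f(t) U_t (a ξ) dt` and `a'⋆ ξ = ∫ conj f(t) U_t (a⋆ ξ) dt`.
Hypotheses: strong continuity of the wave group (A3) and invariance of the vacuum (C1). -/
theorem exists_smooth
    (hcont : ∀ x : H, Continuous fun t : ℝ => S.D.wave t x)
    (hvac : ∀ t : ℝ, S.D.wave t S.vac = S.vac)
    {f : ℝ → ℂ} (hf : Integrable f) {a : H →L[ℂ] H} (ha : a ∈ S.M) :
    ∃ a' : H →L[ℂ] H, a' ∈ S.M ∧ ‖a'‖ ≤ (∫ t, ‖f t‖) * ‖a‖ ∧
      a' S.vac = ∫ t, f t • S.D.wave t (a S.vac) ∧
      star a' S.vac = ∫ t, conj (f t) • S.D.wave t (star a S.vac) := by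
  have hiso : ∀ t x, ‖S.D.wave t x‖ = ‖x‖ := norm_wave S.D
  refine ⟨smooth hiso hcont hf a, smooth_mem hiso hcont hf S.M (fun t => S.flow_mem t a ha),
    norm_smooth_le hiso hcont hf a, smooth_fixed hiso hcont hf a hvac, ?_⟩
  rw [ContinuousLinearMap.star_eq_adjoint, adjoint_smooth hiso hcont (adjoint_wave S.D) hf a,
    smooth_fixed hiso hcont (integrable_conj hf) _ hvac, ContinuousLinearMap.star_eq_adjoint]

/-- **D1 with the Fourier representation (A5) plugged in as hypotheses `hF`, `hG`:** for `a ∈ M`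
there is `a' ∈ M` with `‖a'‖ ≤ ‖f‖₁ ‖a‖`, `a' ξ = F(D)(a ξ)` and `a'⋆ ξ = G(D)(a⋆ ξ)`. -/
theorem exists_smooth_fourier
    (hcont : ∀ x : H, Continuous fun t : ℝ => S.D.wave t x)
    (hvac : ∀ t : ℝ, S.D.wave t S.vac = S.vac)
    {f : ℝ → ℂ} (hf : Integrable f) (F G : BoundedContinuousFunction ℝ ℂ)
    (hF : ∀ x : H, S.D.apply F x = ∫ t, f t • S.D.wave t x)
    (hG : ∀ x : H, S.D.apply G x = ∫ t, conj (f t) • S.D.wave t x)
    {a : H →L[ℂ] H} (ha : a ∈ S.M) :
    ∃ a' : H →L[ℂ] H, a' ∈ S.M ∧ ‖a'‖ ≤ (∫ t, ‖f t‖) * ‖a‖ ∧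
      a' S.vac = S.D.apply F (a S.vac) ∧ star a' S.vac = S.D.apply G (star a S.vac) := by
  obtain ⟨a', h1, h2, h3, h4⟩ := exists_smooth S hcont hvac hf ha
  exact ⟨a', h1, h2, by rw [h3, hF], by rw [h4, hG]⟩

/-- The Fourier transform of the conjugate kernel: if `F u = ∫ f(t) e^{itu} dt` for all `u`,
then `∫ conj f(t) e^{itu} dt = conj (F (-u))`. -/
theorem fourier_conj {f : ℝ → ℂ} {F : ℝ → ℂ}
    (hF : ∀ u : ℝ, F u = ∫ t, f t * Complex.exp (Complex.I * ((t * u : ℝ) : ℂ))) (u : ℝ) :
    ∫ t, conj (f t) * Complex.exp (Complex.I * ((t * u : ℝ) : ℂ)) = conj (F (-u)) := by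
  rw [hF, ← integral_conj]
  congr 1
  funext t
  rw [map_mul, ← Complex.exp_conj]
  congr 2
  simp only [map_mul, Complex.conj_I, Complex.conj_ofReal]
  push_cast
  ring

end Modular

end Crest.Agent.Helper5.S0112
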