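/-
S0112 (row 84), package D in the coordinator's shape (helper72, board 01:20Z): smoothing inside
`M` with the Fourier representation A5 (helper63's `apply_eq_integral_wave`) and strong continuity
A3 (helper63's `continuous_wave_apply`) plugged in.  The only remaining hypothesis is C1
(`hvac : ∀ t, S.D.wave t S.vac = S.vac`).
-/
import Mathlib
import Crest.Prelude.Def_ModularData
import Crest.Agent.Helper5.S0112.Smooth
import Crest.Agent.Helper63.S0112.Fourier

set_option autoImplicit false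

namespace Crest.Agent.Helper5.S0112

open MeasureTheory Filter Topology
open scoped ComplexConjugate InnerProductSpace
open Crest.OpAlg

variable {H : Type*} [NormedAddCommGroup H] [InnerProductSpace ℂ H] [CompleteSpace H]

/-- The reflected conjugate `G(u) = conj (F(-u))` of a bounded continuous function. -/
noncomputable def reflConj (F : BoundedContinuousFunction ℝ ℂ) : BoundedContinuousFunction ℝ ℂ :=
  (star F).compContinuous ⟨fun u : ℝ => -u, continuous_neg⟩

theorem reflConj_apply (F : BoundedContinuousFunction ℝ ℂ) (u : ℝ) :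
    reflConj F u = conj (F (-u)) := rfl

/-- If `f` vanishes off `K` then `f(D) y` is supported in `K`. -/
theorem supportedIn_apply_of_vanish (D : LineCalculus H) {K : Set ℝ}
    {f : BoundedContinuousFunction ℝ ℂ} (hf : ∀ u, u ∉ K → f u = 0) (y : H) :
    D.SupportedIn K (D.apply f y) := by
  intro g hg
  have h0 : g * f = 0 := by
    ext u
    by_cases hu : u ∈ K
    · simp [hg u hu]
    · simp [hf u hu]
  have h1 : D.apply g (D.apply f y) = D.apply (g * f) y := by
    rw [map_mul]; rfl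
  rw [h1, h0, map_zero]; rfl

/-- **Package D, full form.**  For `a ∈ M`, an integrable kernel `f` with Fourier transform
`F(u) = ∫ f(t) e^{itu} dt`: there is `a' ∈ M` with `‖a'‖ ≤ ‖f‖₁ ‖a‖`, `a' ξ = F(D)(a ξ)` and
`a'⋆ ξ = G(D)(a⋆ ξ)` where `G(u) = conj (F(-u))`. -/
theorem exists_smooth_apply (S : ModularDatum H) (hvac : ∀ t : ℝ, S.D.wave t S.vac = S.vac)
    (f : ℝ → ℂ) (hf : Integrable f) (F : BoundedContinuousFunction ℝ ℂ)
    (hF : ∀ u, F u = ∫ t, f t * Complex.exp (Complex.I * ((t * u : ℝ) : ℂ)))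
    (a : H →L[ℂ] H) (ha : a ∈ S.M) :
    ∃ a' : H →L[ℂ] H, a' ∈ S.M ∧ ‖a'‖ ≤ (∫ t, ‖f t‖) * ‖a‖ ∧
      a' S.vac = S.D.apply F (a S.vac) ∧
      star a' S.vac = S.D.apply (reflConj F) (star a S.vac) := by
  refine exists_smooth_fourier S (Crest.Agent.Helper63.S0112.continuous_wave_apply S.D) hvac hf
    F (reflConj F)
    (fun x => Crest.Agent.Helper63.S0112.apply_eq_integral_wave S.D f hf F hF x)
    (fun x => Crest.Agent.Helper63.S0112.apply_eq_integral_wave S.D (fun t => conj (f t))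
      (integrable_conj hf) (reflConj F) (fun u => ?_) x) ha
  rw [reflConj_apply]
  exact (fourier_conj (F := fun u => F u) hF u).symm

/-- **Package D, coordinator's shape.**  If moreover `F` vanishes off `[α, β]`, then `a' ξ` is
supported in `[α, β]` and `a'⋆ ξ` is supported in `[-β, -α]`. -/
theorem exists_smooth_supported (S : ModularDatum H)
    (hvac : ∀ t : ℝ, S.D.wave t S.vac = S.vac)
    (f : ℝ → ℂ) (hf : Integrable f) (F : BoundedContinuousFunction ℝ ℂ)
    (hF : ∀ u, F u = ∫ t, f t * Complex.exp (Complex.I * ((t * u : ℝ) : ℂ)))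
    (α β : ℝ) (hsupp : ∀ u, u ∉ Set.Icc α β → F u = 0)
    (a : H →L[ℂ] H) (ha : a ∈ S.M) :
    ∃ a' : H →L[ℂ] H, a' ∈ S.M ∧ ‖a'‖ ≤ (∫ t, ‖f t‖) * ‖a‖ ∧
      a' S.vac = S.D.apply F (a S.vac) ∧
      S.D.SupportedIn (Set.Icc (-β) (-α)) (star a' S.vac) := by
  obtain ⟨a', h1, h2, h3, h4⟩ := exists_smooth_apply S hvac f hf F hF a ha
  refine ⟨a', h1, h2, h3, ?_⟩
  rw [h4]
  refine supportedIn_apply_of_vanish S.D (fun u hu => ?_) _
  rw [reflConj_apply]
  have hu' : -u ∉ Set.Icc α β := by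
    intro h
    apply hu
    constructor <;> linarith [h.1, h.2]
  rw [hsupp _ hu', map_zero]

/-- Same, also recording that `a' ξ` is supported in `[α, β]`. -/
theorem exists_smooth_supported' (S : ModularDatum H)
    (hvac : ∀ t : ℝ, S.D.wave t S.vac = S.vac)
    (f : ℝ → ℂ) (hf : Integrable f) (F : BoundedContinuousFunction ℝ ℂ)
    (hF : ∀ u, F u = ∫ t, f t * Complex.exp (Complex.I * ((t * u : ℝ) : ℂ)))
    (α β : ℝ) (hsupp : ∀ u, u ∉ Set.Icc α β → F u = 0)
    (a : H →L[ℂ] H) (ha : a ∈ S.M) :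
    ∃ a' : H →L[ℂ] H, a' ∈ S.M ∧ ‖a'‖ ≤ (∫ t, ‖f t‖) * ‖a‖ ∧
      a' S.vac = S.D.apply F (a S.vac) ∧
      S.D.SupportedIn (Set.Icc α β) (a' S.vac) ∧
      S.D.SupportedIn (Set.Icc (-β) (-α)) (star a' S.vac) := by
  obtain ⟨a', h1, h2, h3, h4⟩ := exists_smooth_supported S hvac f hf F hF α β hsupp a ha
  refine ⟨a', h1, h2, h3, ?_, h4⟩
  rw [h3]
  exact supportedIn_apply_of_vanish S.D hsupp _

end Crest.Agent.Helper5.S0112
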