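/-
S0112 (row 84): the "band smoothing" block (HS) = B1 + D1 + A5 + A4 of `notes/s0112/PROOF.md`,
used twice in the assembly (I.2 with `(s, δ)` and I.5 with `(s, 2δ)`).
From landed packages only: helper4's kernel (`exists_kernel_bcf`), helper63's A1/A3/A5 and my D.
The only hypothesis is C1 (`hvac : ∀ t, S.D.wave t S.vac = S.vac`).
-/
import Mathlib
import Crest.Prelude.Def_ModularData
import Crest.Agent.Helper5.S0112.SmoothD
import Crest.Agent.Helper4.S0112.Kernel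

set_option autoImplicit false

namespace Crest.Agent.Helper5.S0112

open MeasureTheory Filter Topology
open scoped ComplexConjugate InnerProductSpace
open Crest.OpAlg

variable {H : Type*} [NormedAddCommGroup H] [InnerProductSpace ℂ H] [CompleteSpace H]

/-- If `f = 1` on `K` and `y` is supported in `K` then `f(D) y = y`. -/
theorem apply_eq_self_of_eq_one_on (D : LineCalculus H) {K : Set ℝ}
    {f : BoundedContinuousFunction ℝ ℂ} (hf : ∀ u ∈ K, f u = 1) {y : H}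
    (hy : D.SupportedIn K y) : D.apply f y = y := by
  have h0 : D.apply (f - 1) y = 0 := hy (f - 1) (fun u hu => by simp [hf u hu])
  rw [map_sub, map_one] at h0
  have h1 : D.apply f y - y = 0 := h0
  exact sub_eq_zero.mp h1

/-- `‖f(D) x‖ ≤ ‖x‖` when `|f| ≤ 1` pointwise. -/
theorem norm_apply_apply_le_of_le_one (D : LineCalculus H)
    {f : BoundedContinuousFunction ℝ ℂ} (hf : ∀ u, ‖f u‖ ≤ 1) (x : H) :
    ‖D.apply f x‖ ≤ ‖x‖ := by
  have h1 : ‖f‖ ≤ 1 := (BoundedContinuousFunction.norm_le zero_le_one).mpr hf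
  calc ‖D.apply f x‖ ≤ ‖D.apply f‖ * ‖x‖ := (D.apply f).le_opNorm x
    _ ≤ ‖f‖ * ‖x‖ :=
        mul_le_mul_of_nonneg_right (Crest.Agent.Helper63.S0112.norm_apply_le D f) (norm_nonneg _)
    _ ≤ 1 * ‖x‖ := mul_le_mul_of_nonneg_right h1 (norm_nonneg _)
    _ = ‖x‖ := one_mul _

/-- **Band smoothing (HS).**  There is a universal constant `C₀` such that for every band
`(s', d)` and every `a ∈ M` there is `a' ∈ M` with `‖a'‖ ≤ C₀ ‖a‖`, `a' ξ` supported in
`[s' - 2d, s' + 2d]`, `a'⋆ ξ` supported in `[-s' - 2d, -s' + 2d]`, and `a' ξ` at least as close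
as `a ξ` to every vector supported in `[s' - d, s' + d]`. -/
theorem band_smoothing (S : ModularDatum H) (hvac : ∀ t : ℝ, S.D.wave t S.vac = S.vac) :
    ∃ C₀ : ℝ, 0 ≤ C₀ ∧ ∀ (s' d : ℝ), 0 < d → ∀ a : H →L[ℂ] H, a ∈ S.M →
      ∃ a' : H →L[ℂ] H, a' ∈ S.M ∧ ‖a'‖ ≤ C₀ * ‖a‖ ∧
        S.D.SupportedIn (Set.Icc (s' - 2 * d) (s' + 2 * d)) (a' S.vac) ∧
        S.D.SupportedIn (Set.Icc (-s' - 2 * d) (-s' + 2 * d)) (star a' S.vac) ∧
        ∀ y : H, S.D.SupportedIn (Set.Icc (s' - d) (s' + d)) y →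
          ‖a' S.vac - y‖ ≤ ‖a S.vac - y‖ := by
  obtain ⟨C₀, hC₀, hker⟩ := Crest.Agent.Helper4.S0112.exists_kernel_bcf
  refine ⟨C₀, hC₀, fun s' d hd a ha => ?_⟩
  obtain ⟨f, hf, hfC, F, hF, hF1, hFone, hFzero⟩ := hker s' d hd
  obtain ⟨a', h1, h2, h3, h4, h5⟩ :=
    exists_smooth_supported' S hvac f hf F hF (s' - 2 * d) (s' + 2 * d) hFzero a ha
  refine ⟨a', h1, ?_, h4, ?_, fun y hy => ?_⟩
  · exact h2.trans (mul_le_mul_of_nonneg_right hfC (norm_nonneg _))
  · have e1 : -(s' + 2 * d) = -s' - 2 * d := by ring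
    have e2 : -(s' - 2 * d) = -s' + 2 * d := by ring
    rw [e1, e2] at h5
    exact h5
  · have hy' : S.D.apply F y = y := apply_eq_self_of_eq_one_on S.D hFone hy
    calc ‖a' S.vac - y‖ = ‖S.D.apply F (a S.vac - y)‖ := by rw [h3, map_sub, hy']
      _ ≤ ‖a S.vac - y‖ := norm_apply_apply_le_of_le_one S.D hF1 _

end Crest.Agent.Helper5.S0112
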